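import Vale.Agent.P310.Main

namespace Vale.Agent.Results.P310.TimeLowerBound

open Vale.Agent.P310

theorem result : ∃ ε : ℝ, 0 < ε ∧ ∀ k : ℕ, 2 ≤ k →
    ∀ A : Turing.TM2Computable encodeInput Computability.encodeBool (decideWL k),
      ∀ᶠ n : ℕ in Filter.atTop, ∃ G H : SimpleGraph (Fin n),
        (n : ℝ) ^ (ε * k) ≤ ((A.outputsFun ⟨n, G, H⟩).steps : ℝ) :=
  main

end Vale.Agent.Results.P310.TimeLowerBound
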